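import Mathlib

/-!
# P004H: the Rankin-Selberg coefficients (shared definitions)
-/

namespace Vale.Agent.P004H.H361

/-- the coefficients of `ζ(2s) ∑ λ(n)² n^{-s}`, `n` prime to `11`, `λ(n)² = a(n)² / n` -/
noncomputable def bb (a : ℕ → ℤ) (k : ℕ) : ℝ :=
  if k.Coprime 11 then
    ∑ n ∈ (Finset.Icc 1 k).filter (fun n => n ^ 2 ∣ k),
      (a (k / n ^ 2) : ℝ) ^ 2 / ((k / n ^ 2 : ℕ) : ℝ)
  else 0

/-- the sharp mean value with power saving -/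
def B1 (a : ℕ → ℤ) : Prop := ∃ V C δ : ℝ, 0 < V ∧ 0 < δ ∧ ∀ x : ℝ, 1 ≤ x →
  |∑ k ∈ Finset.Icc 1 ⌊x⌋₊, bb a k - V * x| ≤ C * x ^ (1 - δ)

/-- the relations of the coefficients -/
structure Rel (a : ℕ → ℤ) : Prop where
  one : a 1 = 1
  mul : ∀ m n : ℕ, m.Coprime n → a (m * n) = a m * a n
  hec : ∀ p : ℕ, p.Prime → p ≠ 11 → ∀ k : ℕ,
    a (p ^ (k + 2)) = a p * a (p ^ (k + 1)) - p * a (p ^ k)
  hasse : ∀ p : ℕ, p.Prime → p ≠ 11 → (a p) ^ 2 ≤ 4 * p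

end Vale.Agent.P004H.H361
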