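import Mathlib

/-!
# P004H: the Hecke operators of weight two on `Gamma0 N`, coset representatives
-/

open UpperHalfPlane ModularForm CongruenceSubgroup Matrix
open scoped MatrixGroups

namespace Vale.Agent.P004H.H361

/-- representatives of the integer matrices of determinant `p` -/
def dlt (p : ℕ) : Option (ZMod p) → Matrix (Fin 2) (Fin 2) ℤ
  | none => !![(p : ℤ), 0; 0, 1]
  | some b => !![1, (b.val : ℤ); 0, (p : ℤ)]

theorem det_dlt (p : ℕ) (i : Option (ZMod p)) : (dlt p i).det = p := by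
  cases i <;> simp [dlt, Matrix.det_fin_two_of]

/-- the matrix of an element of `SL(2, ℤ)` -/
def mv (g : SL(2, ℤ)) : Matrix (Fin 2) (Fin 2) ℤ := (g : Matrix (Fin 2) (Fin 2) ℤ)

theorem mv_mul (g h : SL(2, ℤ)) : mv (g * h) = mv g * mv h := Matrix.SpecialLinearGroup.coe_mul g h

theorem mv_one : mv 1 = 1 := Matrix.SpecialLinearGroup.coe_one

theorem mv_det (g : SL(2, ℤ)) : (mv g).det = 1 := g.property

theorem mv_inv_mul (g : SL(2, ℤ)) : mv g⁻¹ * mv g = 1 := by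
  rw [← mv_mul, inv_mul_cancel, mv_one]

theorem mv_mul_inv (g : SL(2, ℤ)) : mv g * mv g⁻¹ = 1 := by
  rw [← mv_mul, mul_inv_cancel, mv_one]

/-- an element of `SL(2, ℤ)` -/
def mkSL (a b c d : ℤ) (h : a * d - b * c = 1) : SL(2, ℤ) :=
  ⟨!![a, b; c, d], by rw [Matrix.det_fin_two_of]; exact h⟩

theorem mem_G0 {N : ℕ} {g : SL(2, ℤ)} : g ∈ Gamma0 N ↔ (N : ℤ) ∣ mv g 1 0 := by
  rw [Gamma0_mem]
  exact ZMod.intCast_zmod_eq_zero_iff_dvd _ _

theorem mkSL_mem {N : ℕ} {a b c d : ℤ} {h : a * d - b * c = 1} (hc : (N : ℤ) ∣ c) :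
    mkSL a b c d h ∈ Gamma0 N := mem_G0.2 (by simpa [mkSL, mv] using hc)

theorem mkSL_mul {a b c d : ℤ} {h : a * d - b * c = 1} (m : Matrix (Fin 2) (Fin 2) ℤ) :
    mv (mkSL a b c d h) * m = !![a * m 0 0 + b * m 1 0, a * m 0 1 + b * m 1 1;
      c * m 0 0 + d * m 1 0, c * m 0 1 + d * m 1 1] := by
  ext i j
  fin_cases i <;> fin_cases j <;> simp [mkSL, mv, Matrix.mul_apply, Fin.sum_univ_two]

theorem eta2 (m : Matrix (Fin 2) (Fin 2) ℤ) : m = !![m 0 0, m 0 1; m 1 0, m 1 1] := by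
  ext i j
  fin_cases i <;> fin_cases j <;> rfl

/-- a column which is not zero mod `p` represents the matrix -/
theorem dlt_exists_some {p : ℕ} [hp : Fact p.Prime] {N : ℕ} (m : Matrix (Fin 2) (Fin 2) ℤ)
    (hdet : m.det = p) (hc : (N : ℤ) ∣ m 1 0) (h : ¬ ((p : ℤ) ∣ m 0 0 ∧ (p : ℤ) ∣ m 1 0)) :
    ∃ (b : ZMod p) (g : SL(2, ℤ)), g ∈ Gamma0 N ∧ m = mv g * dlt p (some b) := by
  have hp0 : (p : ℤ) ≠ 0 := by exact_mod_cast hp.out.ne_zero
  rw [Matrix.det_fin_two] at hdet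
  have key : ∃ b : ZMod p, ((m 0 1 : ℤ) : ZMod p) = b * (m 0 0 : ℤ) ∧
      ((m 1 1 : ℤ) : ZMod p) = b * (m 1 0 : ℤ) := by
    have hd : ((m 0 0 : ℤ) : ZMod p) * (m 1 1 : ℤ) = (m 0 1 : ℤ) * (m 1 0 : ℤ) := by
      have h1 := congrArg (fun t : ℤ => (t : ZMod p)) hdet
      push_cast at h1
      rw [ZMod.natCast_self] at h1
      exact sub_eq_zero.1 h1
    by_cases h0 : ((m 0 0 : ℤ) : ZMod p) = 0
    · have h1 : ((m 1 0 : ℤ) : ZMod p) ≠ 0 := fun h1 =>
        h ⟨(ZMod.intCast_zmod_eq_zero_iff_dvd _ _).1 h0, (ZMod.intCast_zmod_eq_zero_iff_dvd _ _).1 h1⟩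
      refine ⟨(m 1 1 : ℤ) / (m 1 0 : ℤ), ?_, ?_⟩
      · rw [h0, zero_mul] at hd
        rw [h0, mul_zero]
        exact ((mul_eq_zero.1 hd.symm).resolve_right h1)
      · rw [div_mul_cancel₀ _ h1]
    · refine ⟨(m 0 1 : ℤ) / (m 0 0 : ℤ), ?_, ?_⟩
      · rw [div_mul_cancel₀ _ h0]
      · rw [div_mul_eq_mul_div, ← hd, mul_comm, mul_div_assoc, div_self h0, mul_one]
  obtain ⟨b, hb1, hb2⟩ := key
  have hb : ((b.val : ℤ) : ZMod p) = b := by
    rw [Int.cast_natCast, ZMod.natCast_val, ZMod.cast_id]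
  have e1 : (p : ℤ) ∣ m 0 1 - b.val * m 0 0 := by
    rw [← ZMod.intCast_zmod_eq_zero_iff_dvd]
    push_cast
    push_cast at hb
    rw [hb1, hb, sub_self]
  have e2 : (p : ℤ) ∣ m 1 1 - b.val * m 1 0 := by
    rw [← ZMod.intCast_zmod_eq_zero_iff_dvd]
    push_cast
    push_cast at hb
    rw [hb2, hb, sub_self]
  obtain ⟨u, hu⟩ := e1
  obtain ⟨v, hv⟩ := e2
  have hu' : m 0 1 = b.val * m 0 0 + p * u := by linarith
  have hv' : m 1 1 = b.val * m 1 0 + p * v := by linarith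
  refine ⟨b, mkSL (m 0 0) u (m 1 0) v ?_, mkSL_mem hc, ?_⟩
  · have h1 : (p : ℤ) * (m 0 0 * v - u * m 1 0) = p * 1 := by
      rw [hu', hv'] at hdet; linarith
    exact mul_left_cancel₀ hp0 h1
  · rw [mkSL_mul]
    conv_lhs => rw [eta2 m]
    rw [hu', hv']
    simp only [dlt, Matrix.of_apply, Matrix.cons_val', Matrix.cons_val_zero, Matrix.cons_val_one,
      Matrix.cons_val_fin_one]
    congr 1
    ext i j
    fin_cases i <;> fin_cases j <;> simp <;> ring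

/-- every matrix of determinant `p` with `N ∣ c` is in `Γ₀(N) δ_i`, `p` prime to `N` -/
theorem dlt_exists {p : ℕ} [hp : Fact p.Prime] {N : ℕ} (m : Matrix (Fin 2) (Fin 2) ℤ)
    (hdet : m.det = p) (hc : (N : ℤ) ∣ m 1 0) (hN : ¬ p ∣ N) :
    ∃ (i : Option (ZMod p)) (g : SL(2, ℤ)), g ∈ Gamma0 N ∧ m = mv g * dlt p i := by
  have hp0 : (p : ℤ) ≠ 0 := by exact_mod_cast hp.out.ne_zero
  by_cases h : (p : ℤ) ∣ m 0 0 ∧ (p : ℤ) ∣ m 1 0
  · rw [Matrix.det_fin_two] at hdet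
    obtain ⟨⟨a, ha⟩, ⟨c, hc'⟩⟩ := h
    refine ⟨none, mkSL a (m 0 1) c (m 1 1) ?_, mkSL_mem ?_, ?_⟩
    · have h1 : (p : ℤ) * (a * m 1 1 - m 0 1 * c) = p * 1 := by
        rw [ha, hc'] at hdet; linarith
      exact mul_left_cancel₀ hp0 h1
    · rw [hc'] at hc
      have h2 : IsCoprime (N : ℤ) (p : ℤ) := by
        rw [Nat.isCoprime_iff_coprime]
        exact ((Nat.Prime.coprime_iff_not_dvd hp.out).2 hN).symm
      exact h2.dvd_of_dvd_mul_left hc
    · rw [mkSL_mul]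
      conv_lhs => rw [eta2 m]
      rw [ha, hc']
      ext i j
      fin_cases i <;> fin_cases j <;> simp [dlt] <;> ring
  · obtain ⟨b, g, h1, h2⟩ := dlt_exists_some m hdet hc h
    exact ⟨some b, g, h1, h2⟩

/-- the representatives are inequivalent -/
theorem dlt_inj {p : ℕ} [hp : Fact p.Prime] {i j : Option (ZMod p)} {g : SL(2, ℤ)}
    (h : dlt p i = mv g * dlt p j) : i = j := by
  have hp1 : 1 < (p : ℤ) := by exact_mod_cast hp.out.one_lt
  have hdet := mv_det g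
  rw [Matrix.det_fin_two] at hdet
  have h00 := congrFun (congrFun h 0) 0
  have h01 := congrFun (congrFun h 0) 1
  have h10 := congrFun (congrFun h 1) 0
  have h11 := congrFun (congrFun h 1) 1
  rw [Matrix.mul_apply, Fin.sum_univ_two] at h00 h01 h10 h11
  rcases i with _ | b <;> rcases j with _ | b'
  · rfl
  · exfalso
    simp [dlt] at h00 h01 h10 h11
    rw [← h10, zero_mul, zero_add] at h11
    have h3 : (p : ℤ) ∣ 1 := ⟨_, by rw [mul_comm]; exact h11⟩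
    have := Int.le_of_dvd one_pos h3
    omega
  · exfalso
    simp [dlt] at h00 h01 h10 h11
    have h3 : (p : ℤ) ∣ 1 := ⟨_, by rw [mul_comm]; exact h00⟩
    have := Int.le_of_dvd one_pos h3
    omega
  · simp [dlt] at h00 h01 h10 h11
    rw [← h00, one_mul] at h01
    congr 1
    have h4 : ((b.cast : ℤ) : ZMod p) = ((b'.cast : ℤ) : ZMod p) := by
      rw [h01, Int.cast_add, Int.cast_mul, Int.cast_natCast, ZMod.natCast_self, mul_zero, add_zero]
    rwa [ZMod.intCast_zmod_cast, ZMod.intCast_zmod_cast] at h4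

end Vale.Agent.P004H.H361
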