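import Vale.Agent.P004H.H361.Hecke1

/-!
# P004H: the Hecke operators on `CuspForm (Gamma0 N) 2`
-/

open UpperHalfPlane ModularForm CongruenceSubgroup Matrix ConjAct Matrix.SpecialLinearGroup
open scoped MatrixGroups Topology Manifold Pointwise

namespace Vale.Agent.P004H.H361

variable {p : ℕ} [hp : Fact p.Prime] {N : ℕ}

/-- the representatives as rational matrices -/
noncomputable def dq (p : ℕ) [hp : Fact p.Prime] (i : Option (ZMod p)) : GL (Fin 2) ℚ :=
  Matrix.GeneralLinearGroup.mkOfDetNeZero ((dlt p i).map (fun x : ℤ => (x : ℚ))) (by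
    rw [← Int.cast_det, det_dlt]
    exact_mod_cast hp.out.ne_zero)

/-- the representatives as real matrices -/
noncomputable def dr (p : ℕ) [Fact p.Prime] (i : Option (ZMod p)) : GL (Fin 2) ℝ :=
  (dq p i).map (Rat.castHom ℝ)

theorem dr_val (i : Option (ZMod p)) : (dr p i).val = (dlt p i).map (fun x : ℤ => (x : ℝ)) := by
  ext a b
  simp [dr, dq, Matrix.GeneralLinearGroup.mkOfDetNeZero]

theorem mapGL_val (g : SL(2, ℤ)) : (mapGL ℝ g).val = (mv g).map (fun x : ℤ => (x : ℝ)) := by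
  ext a b
  simp [mv]

theorem dr_mul {i j : Option (ZMod p)} {g g' : SL(2, ℤ)}
    (h : dlt p i * mv g = mv g' * dlt p j) : dr p i * mapGL ℝ g = mapGL ℝ g' * dr p j := by
  apply Units.ext
  rw [Units.val_mul, Units.val_mul, dr_val, dr_val, mapGL_val, mapGL_val]
  have h1 := congrArg (fun m : Matrix (Fin 2) (Fin 2) ℤ => m.map (Int.castRingHom ℝ)) h
  simp only [Matrix.map_mul] at h1
  exact h1

theorem dr_det (i : Option (ZMod p)) : (dr p i).det.val = p := by
  rw [Matrix.GeneralLinearGroup.val_det_apply, dr_val, ← Int.cast_det, det_dlt]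
  norm_cast

/-- the sum over representatives is invariant -/
theorem sum_slash_inv {ι : Type*} [Fintype ι] (e : ι → Option (ZMod p))
    (he : Function.Injective e) {k : ℤ} {f : ℍ → ℂ}
    (hf : ∀ g ∈ Gamma0 N, f ∣[k] (mapGL ℝ g) = f) {g : SL(2, ℤ)} (_hg : g ∈ Gamma0 N)
    (hex : ∀ i : ι, ∃ (j : ι) (g' : SL(2, ℤ)), g' ∈ Gamma0 N ∧
      dlt p (e i) * mv g = mv g' * dlt p (e j)) :
    (∑ i : ι, f ∣[k] dr p (e i)) ∣[k] (mapGL ℝ g) = ∑ i : ι, f ∣[k] dr p (e i) := by
  classical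
  choose j g' hg' hj using hex
  have hinj : Function.Injective j := by
    intro a b hab
    apply he
    have h1 := hj a
    have h2 := hj b
    rw [hab] at h1
    refine dlt_inj (g := g' a * (g' b)⁻¹) ?_
    have h3 : mv (g' b)⁻¹ * (dlt p (e b) * mv g) = dlt p (e (j b)) := by
      rw [h2, ← Matrix.mul_assoc, mv_inv_mul, Matrix.one_mul]
    have h4 : dlt p (e a) * mv g = mv (g' a * (g' b)⁻¹) * dlt p (e b) * mv g := by
      rw [h1, ← h3, mv_mul, Matrix.mul_assoc, Matrix.mul_assoc]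
    have h5 : dlt p (e a) * mv g * mv g⁻¹
        = mv (g' a * (g' b)⁻¹) * dlt p (e b) * mv g * mv g⁻¹ := by rw [h4]
    rw [Matrix.mul_assoc, Matrix.mul_assoc _ (mv g), mv_mul_inv, Matrix.mul_one,
      Matrix.mul_one] at h5
    exact h5
  have hbij : Function.Bijective j := Finite.injective_iff_bijective.1 hinj
  rw [SlashAction.sum_slash]
  rw [← hbij.sum_comp (fun i => f ∣[k] dr p (e i))]
  refine Finset.sum_congr rfl fun i _ => ?_
  rw [← SlashAction.slash_mul, dr_mul (hj i), SlashAction.slash_mul, hf _ (hg' i)]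

theorem holo_sum {ι : Type} (t : Finset ι) {u : ι → ℍ → ℂ} (h : ∀ i ∈ t, MDiff (u i)) :
    MDiff (∑ i ∈ t, u i) := .sum h

/-- the sum over representatives, as a cusp form -/
noncomputable def sumForm [NeZero N] {ι : Type} [Fintype ι] (e : ι → Option (ZMod p)) {k : ℤ}
    (f : CuspForm (Gamma0 N) k)
    (hinv : ∀ g ∈ Gamma0 N, (∑ i : ι, (f : ℍ → ℂ) ∣[k] dr p (e i)) ∣[k] (mapGL ℝ g)
      = ∑ i : ι, (f : ℍ → ℂ) ∣[k] dr p (e i)) : CuspForm (Gamma0 N) k where
  toFun := ∑ i : ι, (f : ℍ → ℂ) ∣[k] dr p (e i)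
  slash_action_eq' := by
    rintro _ ⟨g, hg, rfl⟩
    exact hinv g hg
  holo' := holo_sum _ (fun i _ => (CuspForm.translate f (dr p (e i))).holo')
  zero_at_cusps' {c} hc γ hγ := by
    rw [SlashAction.sum_slash, IsZeroAtImInfty, Filter.ZeroAtFilter, Finset.sum_fn]
    rw [show (0 : ℂ) = ∑ i : ι, 0 by simp]
    refine tendsto_finsetSum _ fun i _ => ?_
    have h1 : (toConjAct (dr p (e i))⁻¹ • ((Gamma0 N : Subgroup SL(2, ℤ)) : Subgroup (GL (Fin 2) ℝ))).IsArithmetic := by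
      have h2 := Subgroup.IsArithmetic.conj ((Gamma0 N : Subgroup SL(2, ℤ)) : Subgroup (GL (Fin 2) ℝ)) (dq p (e i))⁻¹
      rw [map_inv] at h2
      exact h2
    refine (CuspForm.translate f (dr p (e i))).zero_at_cusps' ?_ γ hγ
    rw [Subgroup.IsArithmetic.isCusp_iff_isCusp_SL2Z] at hc ⊢
    exact hc

theorem inv_f [NeZero N] {k : ℤ} (f : CuspForm (Gamma0 N) k) :
    ∀ g ∈ Gamma0 N, (f : ℍ → ℂ) ∣[k] (mapGL ℝ g) = f := fun g hg =>
  SlashInvariantFormClass.slash_action_eq f _ ⟨g, hg, rfl⟩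

omit hp in
theorem det_mul_g (i : Option (ZMod p)) (g : SL(2, ℤ)) : (dlt p i * mv g).det = p := by
  rw [Matrix.det_mul, det_dlt, mv_det, mul_one]

omit hp in
theorem dvd_mul_g (i : Option (ZMod p)) {g : SL(2, ℤ)} (hg : g ∈ Gamma0 N) :
    (N : ℤ) ∣ (dlt p i * mv g) 1 0 := by
  have h1 := mem_G0.1 hg
  rcases i with _ | b
  · simp only [dlt, Matrix.mul_apply, Fin.sum_univ_two]
    simpa using h1
  · simp only [dlt, Matrix.mul_apply, Fin.sum_univ_two]
    simpa using Dvd.dvd.mul_left h1 _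

/-- **`T_p`**, `p` prime to the level -/
noncomputable def Tp [NeZero N] (hN : ¬ p ∣ N) {k : ℤ} (f : CuspForm (Gamma0 N) k) :
    CuspForm (Gamma0 N) k :=
  sumForm (fun i : Option (ZMod p) => i) f fun g hg =>
    sum_slash_inv _ Function.injective_id (inv_f f) hg fun i =>
      dlt_exists _ (det_mul_g i g) (dvd_mul_g i hg) hN

/-- **`U_p`**, `p` divides the level -/
noncomputable def Up [NeZero N] (hN : p ∣ N) {k : ℤ} (f : CuspForm (Gamma0 N) k) :
    CuspForm (Gamma0 N) k :=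
  sumForm (fun b : ZMod p => some b) f fun g hg =>
    sum_slash_inv _ (Option.some_injective _) (inv_f f) hg fun b => by
      refine dlt_exists_some _ (det_mul_g _ g) (dvd_mul_g _ hg) ?_
      rintro ⟨h1, -⟩
      have h2 : (p : ℤ) ∣ mv g 1 0 := (Int.natCast_dvd_natCast.2 hN).trans (mem_G0.1 hg)
      have h3 : (dlt p (some b) * mv g) 0 0 = mv g 0 0 + b.val * mv g 1 0 := by
        simp [dlt, Matrix.mul_apply, Fin.sum_univ_two]
      rw [h3] at h1
      have h4 : (p : ℤ) ∣ mv g 0 0 := (dvd_add_left (Dvd.dvd.mul_left h2 _)).1 h1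
      have hdet := mv_det g
      rw [Matrix.det_fin_two] at hdet
      have h5 : (p : ℤ) ∣ 1 := by
        rw [← hdet]
        exact dvd_sub (Dvd.dvd.mul_right h4 _) (Dvd.dvd.mul_left h2 _)
      have h6 := Int.le_of_dvd one_pos h5
      have h7 : 1 < (p : ℤ) := by exact_mod_cast hp.out.one_lt
      omega

/-! ### explicit formulas in weight two -/

/-- the point `(z + b) / p` -/
noncomputable def ptb (p : ℕ) [hp : Fact p.Prime] (b : ℕ) (z : ℍ) : ℍ :=
  ⟨((z : ℂ) + b) / p, by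
    have h0 : (0 : ℝ) < p := by exact_mod_cast hp.out.pos
    rw [Complex.div_natCast_im, Complex.add_im, Complex.natCast_im, add_zero]
    exact div_pos z.im_pos h0⟩

/-- the point `p z` -/
noncomputable def ptm (p : ℕ) [hp : Fact p.Prime] (z : ℍ) : ℍ :=
  ⟨(p : ℂ) * z, by
    have h0 : (0 : ℝ) < p := by exact_mod_cast hp.out.pos
    have h1 : ((p : ℂ) * z).im = p * z.im := by
      rw [Complex.mul_im, Complex.natCast_re, Complex.natCast_im, zero_mul, add_zero]
      rfl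
    rw [h1]
    exact mul_pos h0 z.im_pos⟩

theorem slash_some (f : ℍ → ℂ) (b : ZMod p) (z : ℍ) :
    (f ∣[(2 : ℤ)] dr p (some b)) z = (1 / p : ℂ) * f (ptb p b.val z) := by
  have hp0 : (0 : ℝ) < p := by exact_mod_cast hp.out.pos
  have hpc : (p : ℂ) ≠ 0 := by exact_mod_cast hp.out.ne_zero
  have hd : 0 < (dr p (some b)).det.val := by rw [dr_det]; exact hp0
  rw [slash_apply, σ, if_pos hd, dr_det]
  have h1 : denom (dr p (some b)) z = p := by
    rw [denom]
    change (((dr p (some b)).val 1 0 : ℝ) : ℂ) * z + (((dr p (some b)).val 1 1 : ℝ) : ℂ) = _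
    rw [dr_val]
    simp [dlt]
  have h2 : dr p (some b) • z = ptb p b.val z := by
    apply UpperHalfPlane.ext
    rw [coe_smul_of_det_pos hd, h1, num]
    change ((((dr p (some b)).val 0 0 : ℝ) : ℂ) * z + (((dr p (some b)).val 0 1 : ℝ) : ℂ)) / p = _
    rw [dr_val]
    simp [dlt, ptb, -ZMod.natCast_val]
  rw [h1, h2]
  simp only [abs_of_pos hp0, ContinuousAlgEquiv.refl_apply]
  norm_num
  field_simp

theorem slash_none (f : ℍ → ℂ) (z : ℍ) :
    (f ∣[(2 : ℤ)] dr p none) z = (p : ℂ) * f (ptm p z) := by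
  have hp0 : (0 : ℝ) < p := by exact_mod_cast hp.out.pos
  have hd : 0 < (dr p none).det.val := by rw [dr_det]; exact hp0
  rw [slash_apply, σ, if_pos hd, dr_det]
  have h1 : denom (dr p none) z = 1 := by
    rw [denom]
    change (((dr p none).val 1 0 : ℝ) : ℂ) * z + (((dr p none).val 1 1 : ℝ) : ℂ) = _
    rw [dr_val]
    simp [dlt]
  have h2 : dr p none • z = ptm p z := by
    apply UpperHalfPlane.ext
    rw [coe_smul_of_det_pos hd, h1, num]
    change ((((dr p none).val 0 0 : ℝ) : ℂ) * z + (((dr p none).val 0 1 : ℝ) : ℂ)) / 1 = _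
    rw [dr_val]
    simp [dlt, ptm]
  rw [h1, h2]
  simp only [abs_of_pos hp0, ContinuousAlgEquiv.refl_apply]
  norm_num
  ring

theorem Tp_apply [NeZero N] (hN : ¬ p ∣ N) (f : CuspForm (Gamma0 N) 2) (z : ℍ) :
    Tp hN f z = (p : ℂ) * f (ptm p z) + (1 / p : ℂ) * ∑ b : ZMod p, f (ptb p b.val z) := by
  change (∑ i : Option (ZMod p), (f : ℍ → ℂ) ∣[(2 : ℤ)] dr p i) z = _
  rw [Finset.sum_apply, Fintype.sum_option, slash_none, Finset.mul_sum]
  simp only [slash_some]

theorem Up_apply [NeZero N] (hN : p ∣ N) (f : CuspForm (Gamma0 N) 2) (z : ℍ) :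
    Up hN f z = (1 / p : ℂ) * ∑ b : ZMod p, f (ptb p b.val z) := by
  change (∑ b : ZMod p, (f : ℍ → ℂ) ∣[(2 : ℤ)] dr p (some b)) z = _
  rw [Finset.sum_apply, Finset.mul_sum]
  simp only [slash_some]

end Vale.Agent.P004H.H361
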