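import Mathlib

/-!
# P004H, R14: the local identity `j β_j = ∑ v_m² β_{j-m}`

`u_{k+2} = λ u_{k+1} - u_k`, `β_j = u_j² + β_{j-2}`, `v_m = 2 cos (m θ)`, `λ = 2 cos θ`.
-/

open PowerSeries

namespace Vale.Agent.P004H.H361

/-- the sum over the squares -/
def bet (u : ℕ → ℝ) : ℕ → ℝ
  | 0 => u 0 ^ 2
  | 1 => u 1 ^ 2
  | j + 2 => u (j + 2) ^ 2 + bet u j

/-- the generating series -/
noncomputable def Bs (u : ℕ → ℝ) : ℝ⟦X⟧ := .mk (bet u)

/-- the generating series of the squares -/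
noncomputable def Us (u : ℕ → ℝ) : ℝ⟦X⟧ := .mk fun k => u k ^ 2

/-- the generating series of the `v_m²`, `m ≥ 1` -/
noncomputable def Ws (v : ℕ → ℝ) : ℝ⟦X⟧ := .mk fun k => if k = 0 then 0 else v k ^ 2

theorem Us_eq {u : ℕ → ℝ} {l c : ℝ} (hc : c = l ^ 2 - 1) (h0 : u 0 = 1) (h1 : u 1 = l)
    (h2 : ∀ k, u (k + 2) = l * u (k + 1) - u k) :
    Us u - C c * (X * Us u) + C c * (X * (X * Us u)) - X * (X * (X * Us u)) = 1 + X := by
  ext n
  rcases n with _ | _ | _ | n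
  · simp [Us, h0]
  · simp only [map_sub, map_add, coeff_C_mul, coeff_succ_X_mul, coeff_zero_X_mul, Us, coeff_mk,
      zero_add]
    rw [coeff_one_X, coeff_one, if_neg (by norm_num), h0, h1, hc]
    ring
  · simp only [map_sub, map_add, coeff_C_mul, coeff_succ_X_mul, coeff_zero_X_mul, Us, coeff_mk,
      zero_add]
    rw [coeff_X, coeff_one, if_neg (by norm_num), if_neg (by norm_num)]
    have e2 : u (1 + 1) = l * u 1 - u 0 := h2 0
    rw [e2, h0, h1, hc]
    ring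
  · simp only [map_sub, map_add, coeff_C_mul, coeff_succ_X_mul, Us, coeff_mk]
    rw [coeff_X, coeff_one, if_neg (by omega), if_neg (by omega)]
    have e3 : u (n + 1 + 1 + 1) = l * u (n + 1 + 1) - u (n + 1) := h2 (n + 1)
    have e2 : u (n + 1 + 1) = l * u (n + 1) - u n := h2 n
    rw [e3, e2, hc]
    ring

theorem Bs_eq (u : ℕ → ℝ) : Bs u - X * (X * Bs u) = Us u := by
  ext n
  rcases n with _ | _ | n
  · simp [Bs, Us, bet]
  · simp only [map_sub, coeff_succ_X_mul, coeff_zero_X_mul, Bs, Us, coeff_mk, zero_add, bet]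
    ring
  · simp only [map_sub, coeff_succ_X_mul, Bs, Us, coeff_mk, bet]
    ring

theorem Ws_eq {v : ℕ → ℝ} {l c d e : ℝ} (hc : c = l ^ 2 - 1) (hd : d = 4 - 3 * l ^ 2)
    (he : e = l ^ 2) (h0 : v 0 = 2) (h1 : v 1 = l)
    (h2 : ∀ k, v (k + 2) = l * v (k + 1) - v k) :
    Ws v - C c * (X * Ws v) + C c * (X * (X * Ws v)) - X * (X * (X * Ws v))
      = C e * X + C d * X ^ 2 + C 4 * X ^ 3 := by
  have v2 : v 2 = l * v 1 - v 0 := h2 0
  have v3 : v 3 = l * v 2 - v 1 := h2 1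
  ext n
  rcases n with _ | _ | _ | _ | n
  · simp [Ws]
  · simp only [map_sub, map_add, coeff_C_mul, coeff_succ_X_mul, coeff_zero_X_mul, Ws, coeff_mk,
      zero_add, coeff_X_pow, coeff_X]
    norm_num
    rw [h1, he]
  · simp only [map_sub, map_add, coeff_C_mul, coeff_succ_X_mul, coeff_zero_X_mul, Ws, coeff_mk,
      zero_add, coeff_X_pow, coeff_X]
    norm_num
    rw [v2, h0, h1, hc, hd]
    ring
  · simp only [map_sub, map_add, coeff_C_mul, coeff_succ_X_mul, Ws, coeff_mk,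
      zero_add, coeff_X_pow, coeff_X]
    norm_num
    rw [v3, v2, h0, h1, hc]
    ring
  · simp only [map_sub, map_add, coeff_C_mul, coeff_succ_X_mul, Ws, coeff_mk, coeff_X_pow, coeff_X]
    rw [if_neg (show ¬ n + 1 + 1 + 1 + 1 = 0 by omega), if_neg (show ¬ n + 1 + 1 + 1 = 0 by omega),
      if_neg (show ¬ n + 1 + 1 = 0 by omega), if_neg (show ¬ n + 1 = 0 by omega),
      if_neg (show ¬ n + 1 + 1 + 1 + 1 = 1 by omega), if_neg (show ¬ n + 1 + 1 + 1 + 1 = 2 by omega),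
      if_neg (show ¬ n + 1 + 1 + 1 + 1 = 3 by omega)]
    have e3 : v (n + 1 + 1 + 1 + 1) = l * v (n + 1 + 1 + 1) - v (n + 1 + 1) := h2 (n + 2)
    have e2 : v (n + 1 + 1 + 1) = l * v (n + 1 + 1) - v (n + 1) := h2 (n + 1)
    rw [e3, e2, hc]
    ring

/-- **the local identity** -/
theorem local_id {u v : ℕ → ℝ} {l : ℝ} (u0 : u 0 = 1) (u1 : u 1 = l)
    (u2 : ∀ k, u (k + 2) = l * u (k + 1) - u k) (v0 : v 0 = 2) (v1 : v 1 = l)
    (v2 : ∀ k, v (k + 2) = l * v (k + 1) - v k) (j : ℕ) :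
    (j : ℝ) * bet u j = ∑ m ∈ Finset.Icc 1 j, v m ^ 2 * bet u (j - m) := by
  obtain ⟨c, hc⟩ : ∃ c, c = l ^ 2 - 1 := ⟨_, rfl⟩
  obtain ⟨d, hd⟩ : ∃ d, d = 4 - 3 * l ^ 2 := ⟨_, rfl⟩
  obtain ⟨e, he⟩ : ∃ e, e = l ^ 2 := ⟨_, rfl⟩
  have hU := Us_eq hc u0 u1 u2
  have hB := Bs_eq u
  have hW := Ws_eq hc hd he v0 v1 v2
  set B := Bs u with hBdef
  set U := Us u
  set W := Ws v with hWdef
  have hce : (C c : ℝ⟦X⟧) = C e - 1 := by rw [hc, he, map_sub, map_one]
  have hde : (C d : ℝ⟦X⟧) = 4 - 3 * C e := by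
    have e4 : (C (4 : ℝ) : ℝ⟦X⟧) = 4 := map_ofNat C 4
    have e3 : (C (3 : ℝ) : ℝ⟦X⟧) = 3 := map_ofNat C 3
    rw [hd, he, map_sub, map_mul, e4, e3]
  have h4 : (C (4 : ℝ) : ℝ⟦X⟧) = 4 := map_ofNat C 4
  obtain ⟨Q, hQ⟩ : ∃ Q : ℝ⟦X⟧, Q = 1 - C e * X + 2 * (C e - 1) * X ^ 2 - C e * X ^ 3 + X ^ 4 :=
    ⟨_, rfl⟩
  have hQB : Q * B = 1 := by
    have h1 : (1 + X) * (Q * B) = (1 + X) * 1 := by
      have h2 : (1 + X) * (Q * B) = (1 - X) ^ 0 * ((1 - C c * X + C c * X ^ 2 - X ^ 3)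
          * (B - X * (X * B))) := by
        rw [hQ, hce]; ring
      rw [h2, hB]
      have h3 : (1 - X) ^ 0 * ((1 - C c * X + C c * X ^ 2 - X ^ 3) * U)
          = U - C c * (X * U) + C c * (X * (X * U)) - X * (X * (X * U)) := by ring
      rw [h3, hU, mul_one]
    have hne : (1 + X : ℝ⟦X⟧) ≠ 0 := by
      intro h
      have := congrArg (coeff 0) h
      simp at this
    exact mul_left_cancel₀ hne h1
  have hQW : Q * W = C e * X - 4 * (C e - 1) * X ^ 2 + 3 * C e * X ^ 3 - 4 * X ^ 4 := by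
    have h2 : Q * W = (1 - X) * (W - C c * (X * W) + C c * (X * (X * W)) - X * (X * (X * W))) := by
      rw [hQ, hce]; ring
    rw [h2, hW, hde, h4]
    ring
  have hdQ : derivative ℝ Q = - C e + 4 * (C e - 1) * X - 3 * C e * X ^ 2 + 4 * X ^ 3 := by
    rw [hQ]
    simp only [map_add, map_sub, Derivation.leibniz, Derivation.leibniz_pow, derivative_X,
      derivative_C, smul_eq_mul, Derivation.map_one_eq_zero, nsmul_eq_mul]
    have h2 : derivative ℝ (2 : ℝ⟦X⟧) = 0 := by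
      rw [show (2 : ℝ⟦X⟧) = C (2 : ℝ) from (map_ofNat C 2).symm, derivative_C]
    rw [h2]
    push_cast
    ring
  have hd1 : derivative ℝ Q * B + Q * derivative ℝ B = 0 := by
    have h1 := congrArg (derivative ℝ) hQB
    rw [Derivation.leibniz, Derivation.map_one_eq_zero, smul_eq_mul, smul_eq_mul] at h1
    linear_combination h1
  have hfin : X * derivative ℝ B = W * B := by
    have h1 : Q * (X * derivative ℝ B) = Q * (W * B) := by
      have h2 : Q * (X * derivative ℝ B) = - X * derivative ℝ Q * B := by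
        linear_combination X * hd1
      have h3 : Q * W = - X * derivative ℝ Q := by rw [hQW, hdQ]; ring
      rw [h2, ← mul_assoc, h3]
    have hne : Q ≠ 0 := by
      intro h
      rw [h, zero_mul] at hQB
      exact zero_ne_one hQB
    exact mul_left_cancel₀ hne h1
  rcases j with _ | j
  · simp
  have h5 := congrArg (coeff (j + 1)) hfin
  rw [coeff_succ_X_mul, coeff_derivative, coeff_mul,
    Finset.Nat.sum_antidiagonal_eq_sum_range_succ_mk, Finset.sum_range_succ'] at h5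
  simp only [hBdef, hWdef, Bs, Ws, coeff_mk, if_true, zero_mul, add_zero] at h5
  push_cast
  rw [mul_comm, h5]
  have h6 : Finset.Icc 1 (j + 1) = (Finset.range (j + 1)).image (fun k => k + 1) := by
    ext m
    simp only [Finset.mem_Icc, Finset.mem_image, Finset.mem_range]
    constructor
    · rintro ⟨h1, h2⟩
      exact ⟨m - 1, by omega, by omega⟩
    · rintro ⟨k, h1, rfl⟩
      omega
  rw [h6, Finset.sum_image (fun a _ b _ h => by simpa using h)]
  refine Finset.sum_congr rfl fun k _ => ?_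
  rw [if_neg (by omega)]

end Vale.Agent.P004H.H361
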