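import Vale.Agent.P004H.H361.BDef
import Vale.Agent.P004H.H742.BaseF

/-!
# P004H: the relations `Rel` for the coefficients of `η(z)² η(11z)²`
-/

namespace Vale.Agent.P004H.H361

/-- **`Rel` for the coefficients of `X_0(11)`** -/
theorem relF : Rel H792.a where
  one := H742.coF.one
  mul := H742.coF.mul
  hec := H742.rels.2.1
  hasse p hp _ := H641.hasse_of H742.coF H666.hasse_cnt p hp

end Vale.Agent.P004H.H361
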