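import Vale.Agent.P004H.H361.Est2
import Vale.Agent.P004E.H185.Mert1

/-!
# P004H, R14: `StMert` from the mean value of `λ(n)²`
-/

open Finset

namespace Vale.Agent.P004H.H361

open P004E.H185 P004E.H185.Mer P004G P004E

theorem pr'_diff (φ : ℕ → ℝ) (N : ℕ) :
    |∑ p ∈ pr N, φ p - ∑ p ∈ pr' N, φ p| ≤ |φ 11| := by
  have h : ∑ p ∈ pr N, φ p = ∑ p ∈ pr' N, φ p + ∑ p ∈ (pr N).filter (fun p => ¬ p ≠ 11), φ p := by
    rw [pr', Finset.sum_filter_add_sum_filter_not]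
  rw [h, add_sub_cancel_left]
  by_cases h11 : 11 ≤ N
  · have : (pr N).filter (fun p => ¬ p ≠ 11) = {11} := by
      ext p
      rw [mem_filter, mem_pr, mem_singleton]
      constructor
      · rintro ⟨-, h⟩
        exact not_not.1 h
      · rintro rfl
        exact ⟨⟨by norm_num, h11⟩, by simp⟩
    rw [this, sum_singleton]
  · have : (pr N).filter (fun p => ¬ p ≠ 11) = ∅ := by
      rw [filter_eq_empty_iff]
      intro p hp h
      rw [mem_pr] at hp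
      have := not_not.1 h
      omega
    rw [this, sum_empty, abs_zero]
    exact abs_nonneg _

theorem one_le_fl {x : ℝ} (hx : 1 ≤ x) : 1 ≤ ⌊x⌋₊ := by
  rw [Nat.le_floor_iff (by linarith)]
  exact_mod_cast hx

theorem log_floor {x : ℝ} (hx : 1 ≤ x) : |Real.log ⌊x⌋₊ - Real.log x| ≤ 1 := by
  have h1 : 1 ≤ ⌊x⌋₊ := one_le_fl hx
  have h1' : (1 : ℝ) ≤ ⌊x⌋₊ := by exact_mod_cast h1
  have h2 : (⌊x⌋₊ : ℝ) ≤ x := Nat.floor_le (by linarith)
  have h3 : x < ⌊x⌋₊ + 1 := Nat.lt_floor_add_one x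
  have h4 : Real.log ⌊x⌋₊ ≤ Real.log x := Real.log_le_log (by linarith) h2
  have h5 : Real.log x ≤ Real.log (2 * ⌊x⌋₊) := Real.log_le_log (by linarith) (by linarith)
  rw [Real.log_mul (by norm_num) (by linarith)] at h5
  have h6 : Real.log 2 ≤ 1 := by linarith [Real.log_two_lt_d9]
  rw [abs_le]
  constructor <;> linarith

/-- **`StMert` from `B1`**, for the coefficients of a curve whose `c(n)²` is `a(n)²` for `n` prime
to the bad modulus, the bad modulus being divisible by `22` -/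
theorem stMert_of [Crv] (h22 : 22 ∣ bd) (a : ℕ → ℤ) (hr : Rel a)
    (hsq : ∀ n : ℕ, n.Coprime bd → (ca n) ^ 2 = (a n) ^ 2) (hB : B1 a) : P004E.StMert := by
  obtain ⟨V, K, d, hi⟩ := exists_inp hB
  obtain ⟨C2, hC2, h2⟩ := mean hi hr
  obtain ⟨C1, hC1, h1⟩ := P004E.mert1
  set φ : ℕ → ℝ := fun p => vv a p 1 ^ 2 * (Real.log p / p) with hφ
  set S3 : ℝ := ∑ p ∈ bd.primeFactors, |φ p| with hS3
  have hS30 : 0 ≤ S3 := sum_nonneg fun _ _ => abs_nonneg _
  refine ⟨C1 + C2 + S3 + |φ 11| + 1, by linarith [abs_nonneg (φ 11)], fun x hx => ?_⟩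
  have e1 : ∑ p ∈ gp x, (lam p ^ 2 - 1) * Real.log p / p
      = ∑ p ∈ gp x, φ p - ∑ p ∈ gp x, Real.log p / p := by
    rw [← sum_sub_distrib]
    refine sum_congr rfl fun p hp => ?_
    unfold gp at hp
    rw [mem_filter] at hp
    obtain ⟨-, hpp, hpb⟩ := hp
    have h11 : p ≠ 11 := by
      rintro rfl
      exact hpb (Dvd.dvd.trans (by norm_num) h22)
    have hcop : p.Coprime bd := (Nat.Prime.coprime_iff_not_dvd hpp).2 hpb
    have hp0 : (0 : ℝ) < p := by exact_mod_cast hpp.pos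
    have h3 : ((ca p : ℝ)) ^ 2 = (a p : ℝ) ^ 2 := by exact_mod_cast hsq p hcop
    have h4 : lam p ^ 2 = vv a p 1 ^ 2 := by
      rw [vv_one hr hpp h11, lam, div_pow, div_pow, h3]
    rw [hφ, h4]
    ring
  have h3 := gp_diff φ x
  have h4 := pr'_diff φ ⌊x⌋₊
  have h5 := h2 ⌊x⌋₊ (one_le_fl hx)
  have h6 := log_floor hx
  have h7 := h1 x hx
  rw [e1]
  rw [abs_le] at h3 h4 h5 h6 h7 ⊢
  constructor
  · linarith [h3.1, h3.2, h4.1, h4.2, h5.1, h5.2, h6.1, h6.2, h7.1, h7.2]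
  · linarith [h3.1, h3.2, h4.1, h4.2, h5.1, h5.2, h6.1, h6.2, h7.1, h7.2]

end Vale.Agent.P004H.H361
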