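import Vale.Agent.P004H.H361.BMul
import Vale.Agent.P004E.H185.Mer

/-!
# P004H, R14: `∑ b(k) log k = ∑_p log p ∑_m v_m² S(N / p^m)`
-/

open Finset

namespace Vale.Agent.P004H.H361

open P004E.H185.Mer

/-- the partial sums -/
noncomputable def SS (a : ℕ → ℤ) (N : ℕ) : ℝ := ∑ k ∈ Icc 1 N, bb a k

theorem log_eq {k N : ℕ} (hk : k ∈ Icc 1 N) :
    Real.log k = ∑ p ∈ pr N, (k.factorization p : ℝ) * Real.log p := by
  rw [mem_Icc] at hk
  rw [Real.log_nat_eq_sum_factorization, Finsupp.sum]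
  apply Finset.sum_subset
  · intro p hp
    rw [Nat.support_factorization] at hp
    rw [mem_pr]
    exact ⟨Nat.prime_of_mem_primeFactors hp,
      (Nat.le_of_dvd hk.1 (Nat.dvd_of_mem_primeFactors hp)).trans hk.2⟩
  · intro p _ hp
    rw [Finsupp.notMem_support_iff] at hp
    simp [hp]

theorem sum_multiples (g : ℕ → ℝ) {q : ℕ} (hq : 0 < q) (N : ℕ) :
    ∑ k ∈ (Icc 1 N).filter (fun k => q ∣ k), g (k / q) = ∑ l ∈ Icc 1 (N / q), g l := by
  have h : (Icc 1 N).filter (fun k => q ∣ k) = (Icc 1 (N / q)).image (fun l => q * l) := by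
    ext k
    rw [mem_filter, mem_Icc, mem_image]
    constructor
    · rintro ⟨⟨h1, h2⟩, ⟨l, rfl⟩⟩
      refine ⟨l, ?_, rfl⟩
      rw [mem_Icc]
      refine ⟨Nat.pos_of_ne_zero (fun h0 => by rw [h0, mul_zero] at h1; omega), ?_⟩
      rw [Nat.le_div_iff_mul_le hq, mul_comm]
      exact h2
    · rintro ⟨l, hl, rfl⟩
      rw [mem_Icc, Nat.le_div_iff_mul_le hq] at hl
      exact ⟨⟨Nat.mul_pos hq hl.1, by rw [mul_comm]; exact hl.2⟩, Dvd.intro l rfl⟩
  rw [h, sum_image (fun x _ y _ h => Nat.eq_of_mul_eq_mul_left hq h)]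
  exact sum_congr rfl fun l _ => by rw [Nat.mul_div_cancel_left _ hq]

variable {a : ℕ → ℤ}

theorem sum_prime (hr : Rel a) {p : ℕ} (hp : p.Prime) (h11 : p ≠ 11) (N : ℕ) :
    ∑ k ∈ Icc 1 N, (k.factorization p : ℝ) * bb a k
      = ∑ m ∈ Icc 1 N, vv a p m ^ 2 * SS a (N / p ^ m) := by
  have h1 : ∀ k ∈ Icc 1 N, (k.factorization p : ℝ) * bb a k
      = ∑ m ∈ Icc 1 N, if p ^ m ∣ k then vv a p m ^ 2 * bb a (k / p ^ m) else 0 := by
    intro k hk
    rw [mem_Icc] at hk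
    have hk0 : k ≠ 0 := by omega
    rw [bb_local hr hp h11 hk0, ← Finset.sum_filter]
    refine sum_congr ?_ fun _ _ => rfl
    ext m
    rw [mem_filter, mem_Icc, mem_Icc, hp.pow_dvd_iff_le_factorization hk0]
    constructor
    · rintro ⟨h1, h2⟩
      refine ⟨⟨h1, ?_⟩, h2⟩
      have h3 : m < p ^ m := Nat.lt_pow_self hp.one_lt
      have h4 : p ^ m ≤ k := Nat.le_of_dvd hk.1 ((hp.pow_dvd_iff_le_factorization hk0).2 h2)
      omega
    · rintro ⟨⟨h1, -⟩, h2⟩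
      exact ⟨h1, h2⟩
  rw [sum_congr rfl h1, sum_comm]
  refine sum_congr rfl fun m _ => ?_
  rw [← Finset.sum_filter, ← mul_sum, SS, ← sum_multiples (bb a) (pow_pos hp.pos m) N]

theorem sum_eleven (N : ℕ) : ∑ k ∈ Icc 1 N, (k.factorization 11 : ℝ) * bb a k = 0 := by
  refine sum_eq_zero fun k _ => ?_
  by_cases h : 11 ∣ k
  · have : ¬ k.Coprime 11 := fun hc => by
      have := Nat.Coprime.eq_one_of_dvd hc.symm h
      omega
    rw [bb_eq, if_neg this, mul_zero]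
  · rw [Nat.factorization_eq_zero_of_not_dvd h]
    simp

/-- the primes up to `N` without `11` -/
def pr' (N : ℕ) : Finset ℕ := (pr N).filter (fun p => p ≠ 11)

theorem mem_pr' {N p : ℕ} : p ∈ pr' N ↔ p.Prime ∧ p ≤ N ∧ p ≠ 11 := by
  unfold pr'
  rw [mem_filter, mem_pr, and_assoc]

/-- **the summation identity** -/
theorem sum_id (hr : Rel a) (N : ℕ) :
    ∑ k ∈ Icc 1 N, bb a k * Real.log k
      = ∑ p ∈ pr' N, Real.log p * ∑ m ∈ Icc 1 N, vv a p m ^ 2 * SS a (N / p ^ m) := by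
  have h1 : ∑ k ∈ Icc 1 N, bb a k * Real.log k
      = ∑ p ∈ pr N, Real.log p * ∑ k ∈ Icc 1 N, (k.factorization p : ℝ) * bb a k := by
    have h2 : ∀ k ∈ Icc 1 N, bb a k * Real.log k
        = ∑ p ∈ pr N, Real.log p * ((k.factorization p : ℝ) * bb a k) := by
      intro k hk
      rw [log_eq hk, mul_sum]
      exact sum_congr rfl fun p _ => by ring
    rw [sum_congr rfl h2, sum_comm]
    exact sum_congr rfl fun p _ => by rw [mul_sum]
  rw [h1, pr', sum_filter]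
  refine sum_congr rfl fun p hp => ?_
  rw [mem_pr] at hp
  by_cases h : p = 11
  · rw [if_neg (by simpa using h), h, sum_eleven, mul_zero]
  · rw [if_pos h, sum_prime hr hp.1 h]

end Vale.Agent.P004H.H361
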